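import Mathlib

/-!
P032, block Sil6, row S6.B.F (396 #13508): the finite kernel check behind `H469/Parity.lean`.
Sets of colours are bit masks (bit 5 = the silent colour, after renaming); `P i` is the list of
the six pairs which are not edges of the star / path / chair on the colours `0..4`.
-/

namespace Vale.Agent.P032.H469

/-- the pairs outside the star (0), the path (1), the chair (2) -/
def P : ℕ → List ℕ
  | 0 => [6, 10, 18, 12, 20, 24]
  | 1 => [5, 9, 17, 10, 18, 20]
  | _ => [5, 9, 17, 10, 20, 24]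

/-- letter number `k` of a column -/
def gt (w : List ℕ) (k : ℕ) : ℕ := w.getD (k % 6) 0

def nb (Q : List ℕ) (x : ℕ) : List ℕ := Q.filter fun y => y &&& x == 0

/-- all closed walks of length six, consecutive letters disjoint -/
def walks (Q : List ℕ) : List (List ℕ) :=
  Q.flatMap fun x0 => (nb Q x0).flatMap fun x1 => (nb Q x1).flatMap fun x2 =>
    (nb Q x2).flatMap fun x3 => (nb Q x3).flatMap fun x4 =>
      ((nb Q x4).filter fun y => y &&& x0 == 0).map fun x5 => [x0, x1, x2, x3, x4, x5]

/-- no antipodal pair of letters covers everything but the colour (mask) `a` -/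
def noLeft (a : ℕ) (w : List ℕ) : Bool :=
  [0, 1, 2].all fun k => (gt w k ||| gt w (k + 3) ||| 32 ||| a) != 63

def V (Q : List ℕ) (a : ℕ) : List (List ℕ) := (walks Q).filter (noLeft a)

def pe (a : ℕ) (w : List ℕ) : Bool := (gt w 0 ||| gt w 2 ||| gt w 4) &&& a != 0
def po (a : ℕ) (w : List ℕ) : Bool := (gt w 1 ||| gt w 3 ||| gt w 5) &&& a != 0

def six : List ℕ := [0, 1, 2, 3, 4, 5]

def tau (h g : List ℕ) (k : ℕ) : ℕ := gt h k ||| gt g k

/-- small step -/
def sm (h g : List ℕ) : Bool :=
  (six.all fun k => gt h k &&& gt g k != 0) &&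
  (six.all fun k => (tau h g k &&& tau h g (k + 1)) &&& ((tau h g k &&& tau h g (k + 1)) - 1) == 0)

def below (h g w : List ℕ) : Bool := six.all fun k => (gt w k ||| tau h g k) == tau h g k

def cols : List (ℕ × ℕ) :=
  [1, 2, 4, 8, 16].flatMap fun c => ([1, 2, 4, 8, 16].filter fun d => c != d).map fun d => (c, d)

/-- `B` = the columns below `tau h g` -/
def drb (B : List (List ℕ)) (a : ℕ) (h g : List ℕ) (k : ℕ) : Bool :=
  (B.all fun w => (pe a w != pe a h) || gt w (k + 3) == gt h (k + 3)) &&
    (gt h (k + 3) ||| tau h g k ||| 32) == 63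

def wrb (B : List (List ℕ)) (a : ℕ) (h g : List ℕ) (k : ℕ) : Bool :=
  (B.all fun w => (pe a w != pe a h) || gt w (k + 3) == gt h (k + 3)) &&
  (B.all fun w => gt w k == gt h k || gt w k == gt g k) &&
  cols.any fun c =>
    (six.any fun i => gt h i == (c.1 ||| c.2) || gt g i == (c.1 ||| c.2)) &&
    (gt h (k + 3) ||| tau h g k ||| 32 ||| c.1) == 63 &&
    (gt h (k + 3) ||| gt h k ||| 32 ||| c.1) == 63 &&
    (gt h (k + 3) ||| gt g k ||| 32 ||| (c.1 ||| c.2)) == 63 &&
    (gt h k ||| tau h g (k + 3) ||| 32) == 63 &&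
    (gt g k ||| tau h g (k + 3) ||| 32 ||| c.2) == 63 &&
    (tau h g k ||| tau h g (k + 3) ||| 32) == 63

def good (U : List (List ℕ)) (a : ℕ) (h g : List ℕ) : Bool :=
  (six.all fun k => gt h k != gt g k) &&
  (fun B => six.all fun j =>
    (drb B a h g j || wrb B a h g j) || (drb B a h g (j + 1) || wrb B a h g (j + 1)))
    (U.filter (below h g))

def chk2 (Q : List ℕ) (a : ℕ) : Bool :=
  (fun U => (U.filter fun w => pe a w).all fun h => (U.filter fun w => !(pe a w)).all fun g =>
    !(sm h g) || (good U a h g && good U a g h)) (V Q a)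

def chk1 (Q : List ℕ) (a : ℕ) : Bool := (V Q a).all fun w => pe a w != po a w

theorem chk1_all : ([0, 1, 2].all fun i => [1, 2, 4, 8, 16].all fun a => chk1 (P i) a) = true := by
  decide +kernel

theorem chk2_all : ([0, 1, 2].all fun i => [1, 2, 4, 8, 16].all fun a => chk2 (P i) a) = true := by
  decide +kernel

end Vale.Agent.P032.H469
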