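import Mathlib
import Vale.Agent.P032.H469.ParFin

/-!
P032, block Sil6, row S6.B.F: every graph on five vertices whose complement is connected is, up to
renaming, contained in the complement of the star, the path or the chair (kernel check over the
`2 ^ 10` graphs).
-/

namespace Vale.Agent.P032.H469

/-- the ten edges of `K_5` -/
def edg : List (ℕ × ℕ) :=
  [(0, 1), (0, 2), (0, 3), (0, 4), (1, 2), (1, 3), (1, 4), (2, 3), (2, 4), (3, 4)]

/-- edges of `K_5` between the set (mask) `X` and its complement -/
def cross (X : ℕ) (e : ℕ × ℕ) : Bool := X.testBit e.1 != X.testBit e.2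

/-- edge number -/
def eno (e : ℕ × ℕ) : ℕ := edg.idxOf e

/-- no cut is contained in the graph `m` -/
def cuts (m : ℕ) : Bool :=
  (List.range 15).all fun X => edg.any fun e => cross (X + 1) e && !(m.testBit (eno e))

/-- insert `x` in all positions -/
def ins (x : ℕ) : List ℕ → List (List ℕ)
  | [] => [[x]]
  | y :: l => (x :: y :: l) :: (ins x l).map fun t => y :: t

def perms : List (List ℕ) :=
  [4, 3, 2, 1, 0].foldl (fun L x => L.flatMap fun l => ins x l) [[]]

def okp (m : ℕ) (l : List ℕ) (i : ℕ) : Bool :=
  edg.all fun e => !(m.testBit (eno e)) ||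
    (P i).contains (2 ^ (l.getD e.1 5) ||| 2 ^ (l.getD e.2 5))

theorem tree_all : ((List.range 1024).all fun m => !(cuts m) ||
    perms.any fun l => [0, 1, 2].any fun i => okp m l i) = true := by
  decide +kernel

/-- every element of `perms` is injective on `0..5` with values `< 6` (value `5` at `5`) -/
theorem perms_all : (perms.all fun l => six.all fun x => six.all fun y =>
    decide (l.getD x 5 < 6) && decide (l.getD 5 5 = 5) && (decide (x = y) || l.getD x 5 != l.getD y 5)) = true := by
  decide +kernel

end Vale.Agent.P032.H469
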