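import Mathlib
import Vale.Agent.P032.H469.ParTree

/-!
P032, block Sil6, row S6.B.F (finite part (F) of 396 #13508, in the interface of 451 #13792).
No geometry: columns of six pairs of a contact graph `M` with connected complement, without an
antipodal left-over `a`: parity of the positions of `a` (F1), and the switches of the parity (F2).
-/

open Set

namespace Vale.Agent.P032.H469

/-- contact graph of a clean point: symmetric, `s` is silent, connected complement -/
structure MC (M : Fin 6 → Fin 6 → Prop) (s : Fin 6) : Prop where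
  symm : ∀ x y, M x y → M y x
  irr : ∀ x, ¬ M x x
  sil : ∀ x, ¬ M s x
  cut : ∀ X Y : Set (Fin 6), X.Nonempty → Y.Nonempty → Disjoint X Y → 5 ≤ (X ∪ Y).ncard →
    ¬ ∀ x ∈ X, ∀ y ∈ Y, M x y

/-- a column of letters without the left-over `a` -/
def Col (M : Fin 6 → Fin 6 → Prop) (s a : Fin 6) (h : Fin 6 → Set (Fin 6)) : Prop :=
  (∀ k, ∃ x y, x ≠ y ∧ M x y ∧ h k = {x, y}) ∧ (∀ k, Disjoint (h k) (h (k + 1))) ∧
    ∀ k, ¬ (univ ⊆ h k ∪ h (k + 3) ∪ {s, a})

/-- the colour `a` sits at an even slot -/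
def par (a : Fin 6) (h : Fin 6 → Set (Fin 6)) : Prop := a ∈ h 0 ∨ a ∈ h 2 ∨ a ∈ h 4

/-- direct rays -/
def Dr (M : Fin 6 → Fin 6 → Prop) (s a : Fin 6) (h h' : Fin 6 → Set (Fin 6)) (k : Fin 6) : Prop :=
  (∀ g, Col M s a g → (∀ i, g i ⊆ h i ∪ h' i) → (par a g ↔ par a h) → g (k + 3) = h (k + 3)) ∧
    univ ⊆ h (k + 3) ∪ (h k ∪ h' k) ∪ {s}

/-- window rays -/
def Wr (M : Fin 6 → Fin 6 → Prop) (s a : Fin 6) (h h' : Fin 6 → Set (Fin 6)) (k : Fin 6) : Prop :=
  (∀ g, Col M s a g → (∀ i, g i ⊆ h i ∪ h' i) → (par a g ↔ par a h) → g (k + 3) = h (k + 3)) ∧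
  (∀ g, Col M s a g → (∀ i, g i ⊆ h i ∪ h' i) → g k = h k ∨ g k = h' k) ∧
  ∃ c c', c ≠ c' ∧ M c c' ∧ (∃ i, h i = {c, c'} ∨ h' i = {c, c'}) ∧
    univ ⊆ h (k + 3) ∪ (h k ∪ h' k) ∪ {s, c} ∧
    univ ⊆ h (k + 3) ∪ h k ∪ {s, c} ∧
    univ ⊆ h (k + 3) ∪ h' k ∪ {s, c, c'} ∧
    univ ⊆ h k ∪ (h (k + 3) ∪ h' (k + 3)) ∪ {s} ∧
    univ ⊆ h' k ∪ (h (k + 3) ∪ h' (k + 3)) ∪ {s, c'} ∧
    univ ⊆ (h k ∪ h' k) ∪ (h (k + 3) ∪ h' (k + 3)) ∪ {s}

section mask

variable (π : Equiv.Perm (Fin 6))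

open Classical in
/-- mask of a set of colours -/
noncomputable def ms (S : Set (Fin 6)) : ℕ := Nat.ofBits fun j : Fin 6 => decide (π.symm j ∈ S)

theorem ms_lt (S : Set (Fin 6)) : ms π S < 64 := by
  have := Nat.ofBits_lt_two_pow (fun j : Fin 6 => @decide (π.symm j ∈ S) (Classical.propDecidable _))
  exact this

theorem tb (S : Set (Fin 6)) (i : ℕ) : (ms π S).testBit i = true ↔ ∃ h : i < 6, π.symm ⟨i, h⟩ ∈ S := by
  unfold ms
  rw [Nat.testBit_ofBits]
  by_cases h : i < 6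
  · rw [dif_pos h]
    constructor
    · intro hh; exact ⟨h, (@decide_eq_true_iff _ (Classical.propDecidable _)).1 hh⟩
    · rintro ⟨_, hh⟩; exact (@decide_eq_true_iff _ (Classical.propDecidable _)).2 hh
  · rw [dif_neg h]
    constructor
    · intro hh; exact absurd hh (by decide)
    · rintro ⟨hh, _⟩; exact absurd hh h

theorem tbx (S : Set (Fin 6)) (x : Fin 6) : (ms π S).testBit (π x : ℕ) = true ↔ x ∈ S := by
  rw [tb]
  constructor
  · rintro ⟨h, hx⟩
    have : (⟨(π x : ℕ), h⟩ : Fin 6) = π x := rfl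
    rw [this, Equiv.symm_apply_apply] at hx
    exact hx
  · intro hx
    refine ⟨(π x).2, ?_⟩
    have : (⟨(π x : ℕ), (π x).2⟩ : Fin 6) = π x := rfl
    rw [this, Equiv.symm_apply_apply]
    exact hx

theorem ms_inj {S T : Set (Fin 6)} (h : ms π S = ms π T) : S = T := by
  ext x
  rw [← tbx π S x, ← tbx π T x, h]

theorem ms_union (S T : Set (Fin 6)) : ms π (S ∪ T) = ms π S ||| ms π T := by
  apply Nat.eq_of_testBit_eq
  intro i
  rw [Bool.eq_iff_iff, Nat.testBit_or, Bool.or_eq_true, tb, tb, tb]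
  constructor
  · rintro ⟨h, hh | hh⟩
    · exact Or.inl ⟨h, hh⟩
    · exact Or.inr ⟨h, hh⟩
  · rintro (⟨h, hh⟩ | ⟨h, hh⟩)
    · exact ⟨h, Or.inl hh⟩
    · exact ⟨h, Or.inr hh⟩

theorem ms_inter (S T : Set (Fin 6)) : ms π (S ∩ T) = ms π S &&& ms π T := by
  apply Nat.eq_of_testBit_eq
  intro i
  rw [Bool.eq_iff_iff, Nat.testBit_and, Bool.and_eq_true, tb, tb, tb]
  constructor
  · rintro ⟨h, h1, h2⟩
    exact ⟨⟨h, h1⟩, ⟨h, h2⟩⟩
  · rintro ⟨⟨h, h1⟩, ⟨_, h2⟩⟩
    exact ⟨h, h1, h2⟩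

theorem ms_empty : ms π (∅ : Set (Fin 6)) = 0 := by
  apply Nat.eq_of_testBit_eq
  intro i
  rw [Bool.eq_iff_iff, tb]
  simp

theorem ms_single (x : Fin 6) : ms π {x} = 2 ^ (π x : ℕ) := by
  apply Nat.eq_of_testBit_eq
  intro i
  rw [Bool.eq_iff_iff, tb, Nat.testBit_two_pow, decide_eq_true_iff]
  constructor
  · rintro ⟨h, hx⟩
    have hx' : π.symm ⟨i, h⟩ = x := hx
    rw [← hx', Equiv.apply_symm_apply]
  · intro h
    refine ⟨h ▸ (π x).2, ?_⟩
    have : (⟨i, h ▸ (π x).2⟩ : Fin 6) = π x := Fin.ext h.symm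
    rw [this, Equiv.symm_apply_apply]
    rfl

theorem ms_pair (x y : Fin 6) : ms π {x, y} = 2 ^ (π x : ℕ) ||| 2 ^ (π y : ℕ) := by
  rw [Set.insert_eq, ms_union, ms_single, ms_single]

theorem ms_univ : ms π (univ : Set (Fin 6)) = 63 := by
  apply Nat.eq_of_testBit_eq
  intro i
  rw [Bool.eq_iff_iff, tb]
  constructor
  · rintro ⟨h, -⟩
    interval_cases i <;> decide
  · intro h
    have : i < 6 := by
      by_contra hi
      have h64 : (63 : ℕ) < 2 ^ i := lt_of_lt_of_le (by norm_num : (63 : ℕ) < 2 ^ 6)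
        (Nat.pow_le_pow_right (by norm_num) (not_lt.1 hi))
      rw [Nat.testBit_lt_two_pow h64] at h
      exact absurd h (by decide)
    exact ⟨this, trivial⟩

theorem univ_sub {S : Set (Fin 6)} : univ ⊆ S ↔ ms π S = 63 := by
  constructor
  · intro h
    rw [Set.univ_subset_iff.1 h, ms_univ]
  · intro h
    exact (Set.univ_subset_iff.2 (ms_inj π (h.trans (ms_univ π).symm)))

/-- masks of a column -/
noncomputable def cl (h : Fin 6 → Set (Fin 6)) : List ℕ :=
  [ms π (h 0), ms π (h 1), ms π (h 2), ms π (h 3), ms π (h 4), ms π (h 5)]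

/-- the number `k` names the slot `i` -/
def At (k : ℕ) (i : Fin 6) : Prop :=
  ∀ h : Fin 6 → Set (Fin 6), gt (cl π h) k = ms π (h i) ∧ gt (cl π h) (k + 3) = ms π (h (i + 3))

theorem at0 (i : Fin 6) : At π (i : ℕ) i := by
  intro h
  fin_cases i <;> exact ⟨rfl, rfl⟩

theorem at1 (i : Fin 6) : At π ((i : ℕ) + 1) (i + 1) := by
  intro h
  fin_cases i <;> exact ⟨rfl, rfl⟩

theorem six_all {p : ℕ → Bool} : six.all p = true ↔ ∀ j : Fin 6, p (j : ℕ) = true := by
  constructor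
  · intro h j
    rw [List.all_eq_true] at h
    apply h
    fin_cases j <;> decide
  · intro h
    rw [List.all_eq_true]
    intro x hx
    have : x < 6 := by
      simp only [six, List.mem_cons, List.not_mem_nil, or_false] at hx
      omega
    exact h ⟨x, this⟩

theorem and_two_pow_ne {n j : ℕ} : (n &&& 2 ^ j != 0) = n.testBit j := by
  rw [Nat.and_two_pow]
  cases h : n.testBit j
  · simp
  · simp

end mask

/-- `π` brings `M` into a standard graph -/
structure Std (π : Equiv.Perm (Fin 6)) (M : Fin 6 → Fin 6 → Prop) (s : Fin 6) (i : ℕ) : Prop where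
  s5 : π s = 5
  mem : ∀ x y, M x y → (2 ^ (π x : ℕ) ||| 2 ^ (π y : ℕ)) ∈ P i

section core

variable {π : Equiv.Perm (Fin 6)} {M : Fin 6 → Fin 6 → Prop} {s a : Fin 6} {i : ℕ}

theorem Std.amem (hS : Std π M s i) (ha : a ≠ s) : 2 ^ (π a : ℕ) ∈ [1, 2, 4, 8, 16] := by
  have h1 : π a ≠ 5 := by
    intro h
    exact ha (π.injective (h.trans hS.s5.symm))
  generalize π a = j at h1 ⊢
  revert h1
  revert j
  decide

theorem Std.col (hS : Std π M s i) {h : Fin 6 → Set (Fin 6)} (hc : Col M s a h) :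
    cl π h ∈ V (P i) (2 ^ (π a : ℕ)) := by
  obtain ⟨h1, h2, h3⟩ := hc
  have hm : ∀ k, ms π (h k) ∈ P i := by
    intro k
    obtain ⟨x, y, -, hxy, hk⟩ := h1 k
    rw [hk, ms_pair]
    exact hS.mem x y hxy
  have hd : ∀ k, ms π (h (k + 1)) &&& ms π (h k) = 0 := by
    intro k
    rw [← ms_inter, ← ms_empty π, Set.inter_comm]
    rw [Set.disjoint_iff_inter_eq_empty.1 (h2 k)]
  have hl : ∀ k, (ms π (h k) ||| ms π (h (k + 3)) ||| 32 ||| 2 ^ (π a : ℕ) != 63) = true := by
    intro k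
    rw [bne_iff_ne]
    intro hh
    apply h3 k
    rw [univ_sub π, ms_union, ms_union, ms_pair, hS.s5]
    rw [← hh, Nat.lor_assoc, Nat.lor_assoc, Nat.lor_assoc]
    rfl
  unfold V
  rw [List.mem_filter]
  constructor
  · simp only [walks, nb, List.mem_flatMap, List.mem_filter, List.mem_map, beq_iff_eq]
    exact ⟨_, hm 0, _, ⟨hm 1, hd 0⟩, _, ⟨hm 2, hd 1⟩, _, ⟨hm 3, hd 2⟩, _, ⟨hm 4, hd 3⟩, _,
      ⟨⟨hm 5, hd 4⟩, (Nat.land_comm _ _).trans (hd 5)⟩, rfl⟩
  · simp only [noLeft, List.all_cons, List.all_nil, Bool.and_true, Bool.and_eq_true]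
    exact ⟨hl 0, hl 1, hl 2⟩

theorem pe_iff (h : Fin 6 → Set (Fin 6)) : pe (2 ^ (π a : ℕ)) (cl π h) = true ↔ par a h := by
  unfold pe par
  rw [and_two_pow_ne, Nat.testBit_or, Nat.testBit_or, Bool.or_eq_true, Bool.or_eq_true]
  have e0 : gt (cl π h) 0 = ms π (h 0) := rfl
  have e2 : gt (cl π h) 2 = ms π (h 2) := rfl
  have e4 : gt (cl π h) 4 = ms π (h 4) := rfl
  rw [e0, e2, e4, tbx, tbx, tbx, or_assoc]

theorem po_iff (h : Fin 6 → Set (Fin 6)) :
    po (2 ^ (π a : ℕ)) (cl π h) = true ↔ par a (fun k => h (k + 1)) := by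
  unfold po par
  rw [and_two_pow_ne, Nat.testBit_or, Nat.testBit_or, Bool.or_eq_true, Bool.or_eq_true]
  have e0 : gt (cl π h) 1 = ms π (h 1) := rfl
  have e2 : gt (cl π h) 3 = ms π (h 3) := rfl
  have e4 : gt (cl π h) 5 = ms π (h 5) := rfl
  rw [e0, e2, e4, tbx, tbx, tbx, or_assoc]
  rfl

theorem Std.f1 (hS : Std π M s i) (hi : i ∈ [0, 1, 2]) (ha : a ≠ s) {h : Fin 6 → Set (Fin 6)}
    (hc : Col M s a h) : par a (fun k => h (k + 1)) ↔ ¬ par a h := by
  have h1 := chk1_all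
  rw [List.all_eq_true] at h1
  have h2 := h1 i hi
  rw [List.all_eq_true] at h2
  have h3 := h2 _ (hS.amem ha)
  unfold chk1 at h3
  rw [List.all_eq_true] at h3
  have h4 := h3 _ (hS.col hc)
  rw [bne_iff_ne] at h4
  rw [← po_iff (π := π), ← pe_iff (π := π)]
  generalize pe (2 ^ (π a : ℕ)) (cl π h) = u at h4 ⊢
  generalize po (2 ^ (π a : ℕ)) (cl π h) = v at h4 ⊢
  revert h4
  revert u v
  decide

theorem bel (π : Equiv.Perm (Fin 6)) {g h h' : Fin 6 → Set (Fin 6)} (hg : ∀ i, g i ⊆ h i ∪ h' i) :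
    below (cl π h) (cl π h') (cl π g) = true := by
  unfold below tau
  rw [six_all]
  intro j
  rw [(at0 π j g).1, (at0 π j h).1, (at0 π j h').1, beq_iff_eq, ← ms_union, ← ms_union,
    Set.union_eq_self_of_subset_left (hg j)]

theorem pe_eq {g h : Fin 6 → Set (Fin 6)} (e : par a g ↔ par a h) :
    pe (2 ^ (π a : ℕ)) (cl π g) = pe (2 ^ (π a : ℕ)) (cl π h) := by
  rw [Bool.eq_iff_iff, pe_iff, pe_iff]
  exact e

theorem Std.const (hS : Std π M s i) {h h' : Fin 6 → Set (Fin 6)} {k : ℕ} {j : Fin 6}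
    (hk : At π k j)
    (hb : (((V (P i) (2 ^ (π a : ℕ))).filter (below (cl π h) (cl π h'))).all fun w =>
      (pe (2 ^ (π a : ℕ)) w != pe (2 ^ (π a : ℕ)) (cl π h)) ||
        gt w (k + 3) == gt (cl π h) (k + 3)) = true) :
    ∀ g, Col M s a g → (∀ i, g i ⊆ h i ∪ h' i) → (par a g ↔ par a h) → g (j + 3) = h (j + 3) := by
  intro g hg hb' hp
  rw [List.all_eq_true] at hb
  have h1 := hb (cl π g) (List.mem_filter.2 ⟨hS.col hg, bel π hb'⟩)
  rw [pe_eq hp, bne_self_eq_false, Bool.false_or, beq_iff_eq, (hk g).2, (hk h).2] at h1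
  exact ms_inj π h1

theorem Std.ofdr (hS : Std π M s i) {h h' : Fin 6 → Set (Fin 6)} {k : ℕ} {j : Fin 6}
    (hk : At π k j)
    (hb : drb ((V (P i) (2 ^ (π a : ℕ))).filter (below (cl π h) (cl π h'))) (2 ^ (π a : ℕ))
      (cl π h) (cl π h') k = true) : Dr M s a h h' j := by
  unfold drb at hb
  rw [Bool.and_eq_true, beq_iff_eq] at hb
  refine ⟨hS.const hk hb.1, ?_⟩
  have h2 := hb.2
  unfold tau at h2
  rw [(hk h).2, (hk h).1, (hk h').1] at h2
  rw [univ_sub π, ms_union, ms_union, ms_union, ms_single, hS.s5]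
  exact h2

theorem colour_of {c : ℕ} (hc : c ∈ [1, 2, 4, 8, 16]) (π : Equiv.Perm (Fin 6)) :
    ∃ x : Fin 6, c = 2 ^ (π x : ℕ) := by
  have h1 : ∃ j : Fin 6, c = 2 ^ (j : ℕ) := by
    simp only [List.mem_cons, List.not_mem_nil, or_false] at hc
    rcases hc with h | h | h | h | h
    · exact ⟨0, h⟩
    · exact ⟨1, h⟩
    · exact ⟨2, h⟩
    · exact ⟨3, h⟩
    · exact ⟨4, h⟩
  obtain ⟨j, hj⟩ := h1
  exact ⟨π.symm j, by rw [Equiv.apply_symm_apply]; exact hj⟩

theorem Std.ofwr (hM : ∀ x y, M x y → M y x) (hS : Std π M s i)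
    {h h' : Fin 6 → Set (Fin 6)} (hh : Col M s a h) (hh' : Col M s a h') {k : ℕ} {j : Fin 6}
    (hk : At π k j)
    (hb : wrb ((V (P i) (2 ^ (π a : ℕ))).filter (below (cl π h) (cl π h'))) (2 ^ (π a : ℕ))
      (cl π h) (cl π h') k = true) : Wr M s a h h' j := by
  unfold wrb at hb
  rw [Bool.and_eq_true, Bool.and_eq_true] at hb
  obtain ⟨⟨h1, h2⟩, h3⟩ := hb
  refine ⟨hS.const hk h1, ?_, ?_⟩
  · intro g hg hb'
    rw [List.all_eq_true] at h2
    have h4 := h2 (cl π g) (List.mem_filter.2 ⟨hS.col hg, bel π hb'⟩)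
    rw [Bool.or_eq_true, beq_iff_eq, beq_iff_eq, (hk g).1, (hk h).1, (hk h').1] at h4
    rcases h4 with h4 | h4
    · exact Or.inl (ms_inj π h4)
    · exact Or.inr (ms_inj π h4)
  · rw [List.any_eq_true] at h3
    obtain ⟨⟨c, d⟩, hcd, h4⟩ := h3
    simp only [cols, List.mem_flatMap, List.mem_map, List.mem_filter, Prod.mk.injEq] at hcd
    obtain ⟨c0, hc0, d0, ⟨hd0, hne⟩, rfl, rfl⟩ := hcd
    rw [bne_iff_ne] at hne
    obtain ⟨x, rfl⟩ := colour_of hc0 π
    obtain ⟨y, rfl⟩ := colour_of hd0 π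
    simp only [Bool.and_eq_true, beq_iff_eq] at h4
    obtain ⟨⟨⟨⟨⟨⟨p0, p1⟩, p2⟩, p3⟩, p4⟩, p5⟩, p6⟩ := h4
    unfold tau at p1 p4 p5 p6
    rw [(hk h).2, (hk h).1, (hk h').1] at p1
    rw [(hk h).2, (hk h).1] at p2
    rw [(hk h).2, (hk h').1] at p3
    rw [(hk h).1, (hk h).2, (hk h').2] at p4
    rw [(hk h').1, (hk h).2, (hk h').2] at p5
    rw [(hk h).1, (hk h').1, (hk h).2, (hk h').2] at p6
    have hxy : x ≠ y := by
      rintro rfl
      exact hne rfl
    rw [List.any_eq_true] at p0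
    obtain ⟨n, hn, hp⟩ := p0
    have hn6 : n < 6 := by
      simp only [six, List.mem_cons, List.not_mem_nil, or_false] at hn
      omega
    have hex : ∃ i, h i = {x, y} ∨ h' i = {x, y} := by
      refine ⟨⟨n, hn6⟩, ?_⟩
      rw [Bool.or_eq_true, beq_iff_eq, beq_iff_eq] at hp
      have e1 : gt (cl π h) n = ms π (h ⟨n, hn6⟩) := (at0 π ⟨n, hn6⟩ h).1
      have e2 : gt (cl π h') n = ms π (h' ⟨n, hn6⟩) := (at0 π ⟨n, hn6⟩ h').1
      rw [e1, e2, ← ms_pair] at hp
      rcases hp with hp | hp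
      · exact Or.inl (ms_inj π hp)
      · exact Or.inr (ms_inj π hp)
    have hMxy : M x y := by
      obtain ⟨i0, hi0⟩ := hex
      have key : ∀ g : Fin 6 → Set (Fin 6), Col M s a g → g i0 = {x, y} → M x y := by
        intro g hg he
        obtain ⟨u, v, huv, hm, hg2⟩ := hg.1 i0
        rw [he] at hg2
        have hx : x ∈ ({u, v} : Set (Fin 6)) := by rw [← hg2]; exact Set.mem_insert _ _
        have hy : y ∈ ({u, v} : Set (Fin 6)) := by
          rw [← hg2]; exact Set.mem_insert_of_mem _ rfl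
        rcases hx with hx | hx <;> rcases hy with hy | hy
        · exact absurd (hx.trans hy.symm) hxy
        · rw [hx, hy]; exact hm
        · rw [hx, hy]; exact hM _ _ hm
        · exact absurd (hx.trans hy.symm) hxy
      rcases hi0 with e | e
      · exact key h hh e
      · exact key h' hh' e
    have s32 : (32 : ℕ) = 2 ^ (π s : ℕ) := by rw [hS.s5]; rfl
    refine ⟨x, y, hxy, hMxy, hex, ?_, ?_, ?_, ?_, ?_, ?_⟩
    · rw [univ_sub π, ms_union, ms_union, ms_union, ms_pair, ← s32, ← Nat.lor_assoc]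
      exact p1
    · rw [univ_sub π, ms_union, ms_union, ms_pair, ← s32, ← Nat.lor_assoc]
      exact p2
    · rw [univ_sub π, ms_union, ms_union, Set.insert_eq, ms_union, ms_single, ms_pair, ← s32,
        ← Nat.lor_assoc]
      exact p3
    · rw [univ_sub π, ms_union, ms_union, ms_union, ms_single, ← s32]
      exact p4
    · rw [univ_sub π, ms_union, ms_union, ms_union, ms_pair, ← s32, ← Nat.lor_assoc]
      exact p5
    · rw [univ_sub π, ms_union, ms_union, ms_union, ms_union, ms_single, ← s32]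
      exact p6

theorem Std.ofgood (hM : ∀ x y, M x y → M y x) (hS : Std π M s i)
    {h h' : Fin 6 → Set (Fin 6)} (hh : Col M s a h) (hh' : Col M s a h')
    (hb : good (V (P i) (2 ^ (π a : ℕ))) (2 ^ (π a : ℕ)) (cl π h) (cl π h') = true) :
    (∀ k, h k ≠ h' k) ∧ ∀ j, (Dr M s a h h' j ∨ Wr M s a h h' j) ∨
      (Dr M s a h h' (j + 1) ∨ Wr M s a h h' (j + 1)) := by
  unfold good at hb
  rw [Bool.and_eq_true, six_all, six_all] at hb
  obtain ⟨h1, h2⟩ := hb
  constructor
  · intro k e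
    have := h1 k
    rw [(at0 π k h).1, (at0 π k h').1, e, bne_self_eq_false] at this
    exact absurd this (by decide)
  · intro j
    have h3 := h2 j
    rw [Bool.or_eq_true, Bool.or_eq_true, Bool.or_eq_true] at h3
    rcases h3 with (h3 | h3) | (h3 | h3)
    · exact Or.inl (Or.inl (hS.ofdr (at0 π j) h3))
    · exact Or.inl (Or.inr (hS.ofwr hM hh hh' (at0 π j) h3))
    · exact Or.inr (Or.inl (hS.ofdr (at1 π j) h3))
    · exact Or.inr (Or.inr (hS.ofwr hM hh hh' (at1 π j) h3))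

theorem ofsm (π : Equiv.Perm (Fin 6)) {h h' : Fin 6 → Set (Fin 6)} (hh : Col M s a h)
    (hh' : Col M s a h') (h3 : ∀ k, (h k ∪ h' k).ncard ≤ 3)
    (h1 : ∀ k, ((h k ∪ h' k) ∩ (h (k + 1) ∪ h' (k + 1))).ncard ≤ 1) :
    sm (cl π h) (cl π h') = true := by
  unfold sm tau
  rw [Bool.and_eq_true, six_all, six_all]
  constructor
  · intro j
    rw [(at0 π j h).1, (at0 π j h').1, bne_iff_ne, ← ms_inter]
    intro e
    rw [← ms_empty π] at e
    have e' := ms_inj π e
    obtain ⟨x, y, hxy, -, ex⟩ := hh.1 j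
    obtain ⟨u, v, huv, -, eu⟩ := hh'.1 j
    have c := Set.ncard_union_eq (Set.disjoint_iff_inter_eq_empty.2 e') (Set.toFinite _)
      (Set.toFinite _)
    have := h3 j
    rw [c, ex, eu, Set.ncard_pair hxy, Set.ncard_pair huv] at this
    omega
  · intro j
    rw [(at0 π j h).1, (at0 π j h').1, (at1 π j h).1, (at1 π j h').1, beq_iff_eq, ← ms_union,
      ← ms_union, ← ms_inter]
    have := h1 j
    generalize (h j ∪ h' j) ∩ (h (j + 1) ∪ h' (j + 1)) = S at this
    rcases Set.eq_empty_or_nonempty S with rfl | ⟨x, hx⟩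
    · rw [ms_empty]
      rfl
    · have hS : S = {x} := by
        rw [Set.ncard_le_one] at this
        ext y
        constructor
        · intro hy; exact this y hy x hx
        · intro hy; rw [Set.mem_singleton_iff.1 hy]; exact hx
      rw [hS, ms_single]
      generalize π x = t
      revert t
      decide

theorem Std.f2 (hM : ∀ x y, M x y → M y x) (hS : Std π M s i) (hi : i ∈ [0, 1, 2]) (ha : a ≠ s)
    {h h' : Fin 6 → Set (Fin 6)} (hh : Col M s a h) (hh' : Col M s a h')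
    (hp : ¬ (par a h ↔ par a h')) (h3 : ∀ k, (h k ∪ h' k).ncard ≤ 3)
    (h1 : ∀ k, ((h k ∪ h' k) ∩ (h (k + 1) ∪ h' (k + 1))).ncard ≤ 1) :
    (∀ k, h k ≠ h' k) ∧ ∀ j, (Dr M s a h h' j ∨ Wr M s a h h' j) ∨
      (Dr M s a h h' (j + 1) ∨ Wr M s a h h' (j + 1)) := by
  have k1 := chk2_all
  rw [List.all_eq_true] at k1
  have k2 := k1 i hi
  rw [List.all_eq_true] at k2
  have k3 := k2 _ (hS.amem ha)
  unfold chk2 at k3
  rw [List.all_eq_true] at k3
  by_cases hpa : par a h
  · have hpb : ¬ par a h' := fun e => hp ⟨fun _ => e, fun _ => hpa⟩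
    have k4 := k3 (cl π h) (List.mem_filter.2 ⟨hS.col hh, (pe_iff h).2 hpa⟩)
    rw [List.all_eq_true] at k4
    have k5 := k4 (cl π h') (List.mem_filter.2 ⟨hS.col hh', by
      cases e : pe (2 ^ (π a : ℕ)) (cl π h')
      · rfl
      · exact absurd ((pe_iff h').1 e) hpb⟩)
    rw [ofsm π hh hh' h3 h1, Bool.not_true, Bool.false_or, Bool.and_eq_true] at k5
    exact hS.ofgood hM hh hh' k5.1
  · have hpb : par a h' := by
      by_contra e
      exact hp ⟨fun f => absurd f hpa, fun f => absurd f e⟩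
    have k4 := k3 (cl π h') (List.mem_filter.2 ⟨hS.col hh', (pe_iff h').2 hpb⟩)
    rw [List.all_eq_true] at k4
    have k5 := k4 (cl π h) (List.mem_filter.2 ⟨hS.col hh, by
      cases e : pe (2 ^ (π a : ℕ)) (cl π h)
      · rfl
      · exact absurd ((pe_iff h).1 e) hpa⟩)
    have h3' : ∀ k, (h' k ∪ h k).ncard ≤ 3 := fun k => by rw [Set.union_comm]; exact h3 k
    have h1' : ∀ k, ((h' k ∪ h k) ∩ (h' (k + 1) ∪ h (k + 1))).ncard ≤ 1 := fun k => by
      rw [Set.union_comm (h' k), Set.union_comm (h' (k + 1))]; exact h1 k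
    rw [ofsm π hh' hh h3' h1', Bool.not_true, Bool.false_or, Bool.and_eq_true] at k5
    exact hS.ofgood hM hh hh' k5.2

end core

section tree

variable {M : Fin 6 → Fin 6 → Prop} {s a : Fin 6}

open Classical in
/-- edge mask of `M` after the renaming `σ` -/
noncomputable def em (M : Fin 6 → Fin 6 → Prop) (σ : Equiv.Perm (Fin 6)) : ℕ :=
  Nat.ofBits fun n : Fin 10 => decide (M (σ (Fin.ofNat 6 (edg.getD n (0, 0)).1))
    (σ (Fin.ofNat 6 (edg.getD n (0, 0)).2)))

theorem em_lt (M : Fin 6 → Fin 6 → Prop) (σ : Equiv.Perm (Fin 6)) : em M σ < 1024 := by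
  classical
  exact Nat.ofBits_lt_two_pow (fun n : Fin 10 => @decide (M (σ (Fin.ofNat 6 (edg.getD n (0, 0)).1))
    (σ (Fin.ofNat 6 (edg.getD n (0, 0)).2))) (Classical.propDecidable _))

theorem em_bit (M : Fin 6 → Fin 6 → Prop) (σ : Equiv.Perm (Fin 6)) {e : ℕ × ℕ} (he : e ∈ edg) :
    (em M σ).testBit (eno e) = true ↔ M (σ (Fin.ofNat 6 e.1)) (σ (Fin.ofNat 6 e.2)) := by
  have key : ∀ n : Fin 10, (em M σ).testBit (n : ℕ) = true ↔
      M (σ (Fin.ofNat 6 (edg.getD n (0, 0)).1)) (σ (Fin.ofNat 6 (edg.getD n (0, 0)).2)) := by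
    intro n
    unfold em
    rw [Nat.testBit_ofBits_lt _ _ n.2]
    exact @decide_eq_true_iff _ (Classical.propDecidable _)
  have h1 : ∀ e ∈ edg, eno e < 10 ∧ edg.getD (eno e) (0, 0) = e := by decide
  obtain ⟨h2, h3⟩ := h1 e he
  have h4 := key ⟨eno e, h2⟩
  simp only [h3] at h4
  exact h4

/-- **spanning tree**: a graph with connected complement sits in a standard graph -/
theorem MC.std (hM : MC M s) : ∃ i ∈ [0, 1, 2], ∃ π : Equiv.Perm (Fin 6), Std π M s i := by
  classical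
  let σ : Equiv.Perm (Fin 6) := Equiv.swap s 5
  have hσ5 : σ 5 = s := Equiv.swap_apply_right s 5
  have hσs : σ s = 5 := Equiv.swap_apply_left s 5
  have hσσ : ∀ x, σ (σ x) = x := fun x => Equiv.swap_apply_self s 5 x
  have hcut : cuts (em M σ) = true := by
    unfold cuts
    rw [List.all_eq_true]
    intro X hX
    rw [List.mem_range] at hX
    by_contra hno
    rw [List.any_eq_true] at hno
    push Not at hno
    -- the cut
    let A : Set (Fin 6) := {x | (σ x : ℕ) < 5 ∧ (X + 1).testBit (σ x : ℕ) = true}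
    let B : Set (Fin 6) := {x | (σ x : ℕ) < 5 ∧ (X + 1).testBit (σ x : ℕ) = false}
    have hA : A.Nonempty := by
      have : ∀ X < 15, ∃ j : Fin 6, (j : ℕ) < 5 ∧ (X + 1).testBit (j : ℕ) = true := by decide
      obtain ⟨j, hj, hj'⟩ := this X hX
      exact ⟨σ j, by simp only [A, Set.mem_ofPred_eq, hσσ]; exact ⟨hj, hj'⟩⟩
    have hB : B.Nonempty := by
      have : ∀ X < 15, (X + 1).testBit 4 = false := by decide
      exact ⟨σ 4, by simp only [B, Set.mem_ofPred_eq, hσσ]; exact ⟨by decide, this X hX⟩⟩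
    have hAB : Disjoint A B := by
      rw [Set.disjoint_left]
      rintro x ⟨-, hx⟩ ⟨-, hx'⟩
      rw [hx] at hx'
      exact absurd hx' (by decide)
    have hun : A ∪ B = {s}ᶜ := by
      ext x
      constructor
      · intro hx hs
        rw [Set.mem_singleton_iff] at hs
        subst hs
        have : ((σ x : Fin 6) : ℕ) < 5 := by
          rcases hx with hx | hx
          · exact hx.1
          · exact hx.1
        rw [hσs] at this
        exact absurd this (by decide)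
      · intro hx
        have h5 : ((σ x : Fin 6) : ℕ) < 5 := by
          have h6 := (σ x).2
          have hne : (σ x : ℕ) ≠ 5 := by
            intro h
            apply hx
            have : σ x = 5 := Fin.ext h
            rw [Set.mem_singleton_iff, ← hσσ x, this, hσ5]
          omega
        cases hb : (X + 1).testBit (σ x : ℕ)
        · exact Or.inr ⟨h5, hb⟩
        · exact Or.inl ⟨h5, hb⟩
    have hcard : 5 ≤ (A ∪ B).ncard := by
      rw [hun, Set.ncard_compl, Set.ncard_singleton, Nat.card_eq_fintype_card, Fintype.card_fin]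
    apply hM.cut A B hA hB hAB hcard
    rintro x ⟨hx1, hx2⟩ y ⟨hy1, hy2⟩
    have hcr : ∀ e ∈ edg, cross (X + 1) e = true →
        M (σ (Fin.ofNat 6 e.1)) (σ (Fin.ofNat 6 e.2)) := by
      intro e he hc
      rw [← em_bit M σ he]
      have := hno e he
      cases hb : (em M σ).testBit (eno e)
      · exfalso
        apply this
        rw [hc, hb]
        rfl
      · rfl
    have hof : ∀ z : Fin 6, Fin.ofNat 6 (z : ℕ) = z := by decide
    rcases lt_trichotomy (σ x : ℕ) (σ y : ℕ) with hlt | heq | hgt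
    · have hmem : ((σ x : ℕ), (σ y : ℕ)) ∈ edg := by
        generalize σ x = u at *
        generalize σ y = v at *
        revert hx1 hy1 hlt
        clear hx2 hy2
        revert u v
        decide
      have h8 := hcr _ hmem (by simp only [cross, hx2, hy2]; decide)
      simp only [hof, hσσ] at h8
      exact h8
    · rw [heq, hy2] at hx2
      exact absurd hx2 (by decide)
    · have hmem : ((σ y : ℕ), (σ x : ℕ)) ∈ edg := by
        generalize σ x = u at *
        generalize σ y = v at *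
        revert hx1 hy1 hgt
        clear hx2 hy2
        revert u v
        decide
      have h8 := hcr _ hmem (by simp only [cross, hx2, hy2]; decide)
      simp only [hof, hσσ] at h8
      exact hM.symm _ _ h8
  have h1 := tree_all
  rw [List.all_eq_true] at h1
  have h2 := h1 (em M σ) (List.mem_range.2 (em_lt M σ))
  rw [hcut, Bool.not_true, Bool.false_or, List.any_eq_true] at h2
  obtain ⟨l, hl, h3⟩ := h2
  rw [List.any_eq_true] at h3
  obtain ⟨i, hi, h4⟩ := h3
  refine ⟨i, hi, ?_⟩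
  have h5 := perms_all
  rw [List.all_eq_true] at h5
  have h6 := h5 l hl
  rw [six_all] at h6
  have h7 : ∀ x y : Fin 6, l.getD x 5 < 6 ∧ l.getD 5 5 = 5 ∧ (x ≠ y → l.getD x 5 ≠ l.getD y 5) := by
    intro x y
    have h8 := h6 x
    rw [six_all] at h8
    have h9 := h8 y
    simp only [Bool.and_eq_true, decide_eq_true_eq, Bool.or_eq_true, bne_iff_ne] at h9
    obtain ⟨⟨p, q⟩, r⟩ := h9
    refine ⟨p, q, fun hne => ?_⟩
    rcases r with r | r
    · exact absurd (Fin.ext r) hne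
    · exact r
  let f : Fin 6 → Fin 6 := fun x => ⟨l.getD x 5, (h7 x x).1⟩
  have hf : Function.Injective f := by
    intro x y hxy
    by_contra hne
    exact (h7 x y).2.2 hne (congrArg Fin.val hxy)
  let ρ : Equiv.Perm (Fin 6) := Equiv.ofBijective f (Finite.injective_iff_bijective.1 hf)
  have hρ : ∀ x : Fin 6, ((ρ x : Fin 6) : ℕ) = l.getD x 5 := fun x => rfl
  refine ⟨σ.trans ρ, ?_, ?_⟩
  · apply Fin.ext
    rw [Equiv.trans_apply, hσs, hρ]
    exact (h7 0 0).2.1
  · intro x y hxy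
    rw [Equiv.trans_apply, Equiv.trans_apply, hρ, hρ]
    unfold okp at h4
    rw [List.all_eq_true] at h4
    have hxs : x ≠ s := by rintro rfl; exact hM.sil _ hxy
    have hys : y ≠ s := by rintro rfl; exact hM.sil _ (hM.symm _ _ hxy)
    have hlt5 : ∀ z, z ≠ s → ((σ z : Fin 6) : ℕ) < 5 := by
      intro z hz
      have h6 := (σ z).2
      have hne : (σ z : ℕ) ≠ 5 := by
        intro h
        apply hz
        have : σ z = 5 := Fin.ext h
        rw [← hσσ z, this, hσ5]
      omega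
    have hx1 := hlt5 x hxs
    have hy1 := hlt5 y hys
    have hof : ∀ z : Fin 6, Fin.ofNat 6 (z : ℕ) = z := by decide
    have hok : ∀ e ∈ edg, M (σ (Fin.ofNat 6 e.1)) (σ (Fin.ofNat 6 e.2)) →
        (2 ^ (l.getD e.1 5) ||| 2 ^ (l.getD e.2 5)) ∈ P i := by
      intro e he hm
      rw [← em_bit M σ he] at hm
      have := h4 e he
      rw [hm, Bool.not_true, Bool.false_or, List.contains_iff_mem] at this
      exact this
    rcases lt_trichotomy (σ x : ℕ) (σ y : ℕ) with hlt | heq | hgt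
    · have hmem : ((σ x : ℕ), (σ y : ℕ)) ∈ edg := by
        generalize σ x = u at *
        generalize σ y = v at *
        revert hx1 hy1 hlt
        clear hxy
        revert u v
        decide
      exact hok _ hmem (by simp only [hof, hσσ]; exact hxy)
    · have : x = y := σ.injective (Fin.ext heq)
      rw [this] at hxy
      exact absurd hxy (hM.irr y)
    · have hmem : ((σ y : ℕ), (σ x : ℕ)) ∈ edg := by
        generalize σ x = u at *
        generalize σ y = v at *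
        revert hx1 hy1 hgt
        clear hxy
        revert u v
        decide
      have := hok _ hmem (by simp only [hof, hσσ]; exact hM.symm _ _ hxy)
      rw [Nat.lor_comm]
      exact this

end tree

variable {M : Fin 6 → Fin 6 → Prop} {s a : Fin 6} {h h' : Fin 6 → Set (Fin 6)}

/-- (F1): the parity of a column without left-over `a` flips under the turn by one slot -/
theorem f1 (hM : MC M s) (ha : a ≠ s) (hc : Col M s a h) :
    par a (fun k => h (k + 1)) ↔ ¬ par a h := by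
  obtain ⟨i, hi, π, hS⟩ := hM.std
  exact hS.f1 hi ha hc

/-- (F2): at a switch of the parity all six slots move, and of two neighbouring rays at least one
is direct or a window -/
theorem f2 (hM : MC M s) (ha : a ≠ s) (hh : Col M s a h) (hh' : Col M s a h')
    (hp : ¬ (par a h ↔ par a h')) (h3 : ∀ k, (h k ∪ h' k).ncard ≤ 3)
    (h1 : ∀ k, ((h k ∪ h' k) ∩ (h (k + 1) ∪ h' (k + 1))).ncard ≤ 1) :
    (∀ k, h k ≠ h' k) ∧ ∀ j, (Dr M s a h h' j ∨ Wr M s a h h' j) ∨
      (Dr M s a h h' (j + 1) ∨ Wr M s a h h' (j + 1)) := by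
  obtain ⟨i, hi, π, hS⟩ := hM.std
  exact hS.f2 hM.symm hi ha hh hh' hp h3 h1

end Vale.Agent.P032.H469
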